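import Vale.Agent.P309b.Main

namespace Vale.Agent.Results.P309.Lower

open MeasureTheory Vale.Agent.P309b

universe u

theorem result : ∃ c : ℝ, 0 < c ∧ ∃ d0 : ℕ, ∀ (A : ℝ), 0 ≤ A → ∀ d : ℕ, d0 ≤ d →
    ∀ M : ℕ, (M : ℝ) ≤ A * (d : ℝ) ^ 2 → ∀ ε : ℝ, 0 < ε → ε ≤ 1 / 10 → ∀ T : ℕ,
    ∀ (Ω : Type u) [MeasurableSpace Ω] (P : Measure Ω) [IsProbabilityMeasure P]
      (L : Learner d M Ω), L.Succeeds P T ε →
      c / (1 + A) * (d : ℝ) * Real.log (1 / ε) ≤ (T : ℝ) := by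
  refine ⟨1 / 640, by norm_num, 17, fun A hA d hd M hM ε hε hε1 T Ω _ P _ L h => ?_⟩
  have h1 := lower_bound hd hε hε1 h
  have hd0 : (0 : ℝ) < d := by exact_mod_cast (by omega : 0 < d)
  have h2 : (M : ℝ) / d ^ 2 ≤ A := by rwa [div_le_iff₀ (by positivity)]
  have h3 : (1 + (M : ℝ) / d ^ 2) * T ≤ (1 + A) * T := by gcongr
  rw [mul_assoc, div_mul_eq_mul_div, div_le_iff₀ (by positivity)]
  linarith

end Vale.Agent.Results.P309.Lower
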