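import Vale.Agent.P309.Final

open Vale.Agent.P309

theorem Vale.Agent.Results.P309.LowerBound.result (A : ℝ) :
    ∃ c : ℝ, 0 < c ∧ ∃ ε₀ : ℝ, 0 < ε₀ ∧ ∃ d₀ : ℕ, ∀ d : ℕ, d₀ ≤ d →
      ∀ ε : ℝ, 0 < ε → ε ≤ ε₀ → ∀ M T : ℕ, (M : ℝ) ≤ A * (d : ℝ) ^ 2 →
        ∀ (Q : Type) [Fintype Q] [MeasurableSpace Q] [DiscreteMeasurableSpace Q],
          Fintype.card Q ≤ 2 ^ M → ∀ L : Learner d Q, 2 / 3 ≤ L.success T ε →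
            c * d * Real.log (1 / ε) ≤ T :=
  lower_bound A
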